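import Mathlib

/-!
# P369 (helper28): two-sided bounds for the exponential of the thermal entropy function

For `t ≥ 0` put `g t = (t + 1) * log (t + 1) - t * log t`.  We show
`exp 1 * t + 1 ≤ exp (g t) ≤ exp 1 * (t + 1 / 2)`.
Both bounds come from the inequality `∫ log h ≤ log ∫ h` on `[0, 1]`, applied to
`h s = t + s`, `h s = t / (t + s)` and `h s = s / (t + s)`.
-/

namespace Vale.Agent.Lib.P369.H28

open Real MeasureTheory intervalIntegral

/-- The thermal entropy function. -/
noncomputable def gfun (t : ℝ) : ℝ := (t + 1) * Real.log (t + 1) - t * Real.log t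

theorem integrable_log_shift {t : ℝ} (ht : 0 < t) :
    IntervalIntegrable (fun s : ℝ => Real.log (t + s)) volume 0 1 := by
  apply ContinuousOn.intervalIntegrable
  apply ContinuousOn.log
  · exact (continuous_const.add continuous_id).continuousOn
  · intro s hs
    rw [Set.uIcc_of_le zero_le_one] at hs
    have := hs.1
    positivity

theorem integrable_inv_shift {t : ℝ} (ht : 0 < t) :
    IntervalIntegrable (fun s : ℝ => (t + s)⁻¹) volume 0 1 := by
  apply ContinuousOn.intervalIntegrable
  apply ContinuousOn.inv₀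
  · exact (continuous_const.add continuous_id).continuousOn
  · intro s hs
    rw [Set.uIcc_of_le zero_le_one] at hs
    have := hs.1
    positivity

theorem integral_log_shift (t : ℝ) :
    ∫ s in (0:ℝ)..1, Real.log (t + s) = gfun t - 1 := by
  rw [intervalIntegral.integral_comp_add_left (fun x => Real.log x) t, integral_log]
  unfold gfun
  simp only [add_zero]
  ring

theorem integral_inv_shift {t : ℝ} (ht : 0 < t) :
    ∫ s in (0:ℝ)..1, (t + s)⁻¹ = Real.log (t + 1) - Real.log t := by
  rw [intervalIntegral.integral_comp_add_left (fun x => x⁻¹) t,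
    integral_inv_of_pos (by linarith) (by linarith), add_zero,
    Real.log_div (by positivity) (by positivity)]

theorem integral_id_shift (t : ℝ) :
    ∫ s in (0:ℝ)..1, (t + s) = t + 1 / 2 := by
  rw [intervalIntegral.integral_comp_add_left (fun x => x) t, integral_id]
  ring

theorem integral_lin {f : ℝ → ℝ} (hf : IntervalIntegrable f volume 0 1) (A B : ℝ) :
    ∫ s in (0:ℝ)..1, (A + B * f s) = A + B * ∫ s in (0:ℝ)..1, f s := by
  rw [intervalIntegral.integral_add intervalIntegrable_const (hf.const_mul B),
    intervalIntegral.integral_const, intervalIntegral.integral_const_mul]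
  simp

theorem integrable_lin {f : ℝ → ℝ} (hf : IntervalIntegrable f volume 0 1) (A B : ℝ) :
    IntervalIntegrable (fun s => A + B * f s) volume 0 1 :=
  intervalIntegrable_const.add (hf.const_mul B)

/-- Tangent-line bound for the logarithm. -/
theorem log_le_tangent {r c : ℝ} (hr : 0 < r) (hc : 0 < c) :
    Real.log r ≤ Real.log c - 1 + r / c := by
  have h := Real.log_le_sub_one_of_pos (div_pos hr hc)
  rw [Real.log_div hr.ne' hc.ne'] at h
  linarith

/-- Upper bound: `exp (g t) ≤ e (t + 1/2)`. -/
theorem exp_gfun_le {t : ℝ} (ht : 0 ≤ t) :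
    Real.exp (gfun t) ≤ Real.exp 1 * (t + 1 / 2) := by
  rcases ht.eq_or_lt with h0 | hpos
  · subst h0
    have h2 : (2:ℝ) ≤ Real.exp 1 := by
      have := Real.add_one_le_exp (1:ℝ)
      linarith
    have : gfun 0 = 0 := by simp [gfun]
    rw [this, Real.exp_zero]
    linarith
  · have hm : 0 < t + 1 / 2 := by linarith
    have hint : IntervalIntegrable (fun s : ℝ => t + s) volume 0 1 :=
      (continuous_const.add continuous_id).intervalIntegrable 0 1
    have key : ∫ s in (0:ℝ)..1, Real.log (t + s)
        ≤ ∫ s in (0:ℝ)..1, ((Real.log (t + 1 / 2) - 1) + (t + 1 / 2)⁻¹ * (t + s)) := by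
      apply intervalIntegral.integral_mono_on zero_le_one (integrable_log_shift hpos)
        (integrable_lin hint _ _)
      intro s hs
      have hs0 : 0 < t + s := by have := hs.1; linarith
      have h := log_le_tangent hs0 hm
      have h2 : (t + s) / (t + 1 / 2) = (t + 1 / 2)⁻¹ * (t + s) := div_eq_inv_mul _ _
      rw [h2] at h
      exact h
    rw [integral_log_shift, integral_lin hint, integral_id_shift, inv_mul_cancel₀ hm.ne'] at key
    have h1 : gfun t ≤ 1 + Real.log (t + 1 / 2) := by linarith
    calc Real.exp (gfun t) ≤ Real.exp (1 + Real.log (t + 1 / 2)) := Real.exp_le_exp.mpr h1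
      _ = Real.exp 1 * (t + 1 / 2) := by rw [Real.exp_add, Real.exp_log hm]

/-- Lower bound: `e t + 1 ≤ exp (g t)`. -/
theorem le_exp_gfun {t : ℝ} (ht : 0 ≤ t) :
    Real.exp 1 * t + 1 ≤ Real.exp (gfun t) := by
  rcases ht.eq_or_lt with h0 | hpos
  · subst h0
    have : gfun 0 = 0 := by simp [gfun]
    rw [this, Real.exp_zero]
    linarith
  · have ht1 : 0 < t + 1 := by linarith
    set c1 : ℝ := t * (Real.log (t + 1) - Real.log t) with hc1
    have hlogpos : 0 < Real.log (t + 1) - Real.log t := by
      have := Real.log_lt_log hpos (by linarith : t < t + 1)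
      linarith
    have hc1pos : 0 < c1 := mul_pos hpos hlogpos
    have hc1lt : c1 < 1 := by
      have h := Real.log_lt_sub_one_of_pos (div_pos ht1 hpos) (by
        intro h
        rw [div_eq_one_iff_eq hpos.ne'] at h
        linarith)
      rw [Real.log_div ht1.ne' hpos.ne'] at h
      have h2 : (t + 1) / t - 1 = 1 / t := by field_simp; ring
      rw [h2] at h
      have h3 : c1 < t * (1 / t) := by
        rw [hc1]
        exact mul_lt_mul_of_pos_left h hpos
      rwa [mul_one_div_cancel hpos.ne'] at h3
    set c2 : ℝ := 1 - c1 with hc2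
    have hc2pos : 0 < c2 := by rw [hc2]; linarith
    have hI1 := integrable_log_shift hpos
    have hI2 := integrable_inv_shift hpos
    -- first Jensen inequality
    have key1 : ∫ s in (0:ℝ)..1, (Real.log t + (-1) * Real.log (t + s))
        ≤ ∫ s in (0:ℝ)..1, ((Real.log c1 - 1) + (t / c1) * (t + s)⁻¹) := by
      apply intervalIntegral.integral_mono_on zero_le_one (integrable_lin hI1 _ _)
        (integrable_lin hI2 _ _)
      intro s hs
      have hs0 : 0 < t + s := by have := hs.1; linarith
      have h := log_le_tangent (div_pos hpos hs0) hc1pos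
      rw [Real.log_div hpos.ne' hs0.ne'] at h
      have h2 : t / (t + s) / c1 = t / c1 * (t + s)⁻¹ := by
        field_simp
      rw [h2] at h
      linarith
    rw [integral_lin hI1, integral_lin hI2, integral_log_shift, integral_inv_shift hpos] at key1
    have hone : t / c1 * (Real.log (t + 1) - Real.log t) = 1 := by
      rw [hc1]
      field_simp
    rw [hone] at key1
    have e1 : Real.log t - gfun t + 1 ≤ Real.log c1 := by linarith
    -- second Jensen inequality
    have hF : IntervalIntegrable (fun s : ℝ => Real.log s - Real.log (t + s)) volume 0 1 :=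
      intervalIntegrable_log'.sub hI1
    have key2 : ∫ s in (0:ℝ)..1, (Real.log s - Real.log (t + s))
        ≤ ∫ s in (0:ℝ)..1, ((Real.log c2 - 1 + 1 / c2) + (-t / c2) * (t + s)⁻¹) := by
      apply intervalIntegral.integral_mono_on_of_le_Ioo zero_le_one hF (integrable_lin hI2 _ _)
      intro s hs
      have hs1 : 0 < s := hs.1
      have hs0 : 0 < t + s := by linarith
      have h := log_le_tangent (div_pos hs1 hs0) hc2pos
      rw [Real.log_div hs1.ne' hs0.ne'] at h
      have h2 : s / (t + s) / c2 = 1 / c2 + (-t / c2) * (t + s)⁻¹ := by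
        field_simp
        ring
      rw [h2] at h
      linarith
    rw [intervalIntegral.integral_sub intervalIntegrable_log' hI1, integral_lin hI2,
      integral_log_shift, integral_inv_shift hpos, integral_log] at key2
    have htwo : 1 / c2 + (-t / c2) * (Real.log (t + 1) - Real.log t) = 1 := by
      have : (-t / c2) * (Real.log (t + 1) - Real.log t) = -c1 / c2 := by
        rw [hc1]; ring
      rw [this, hc2]
      have hne : (1 - c1) ≠ 0 := by rw [← hc2]; exact hc2pos.ne'
      field_simp
      ring
    have e2 : -gfun t ≤ Real.log c2 := by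
      simp only [Real.log_one, Real.log_zero, mul_zero, sub_zero] at key2
      linarith
    -- exponentiate
    have x1 : Real.exp (Real.log t - gfun t + 1) ≤ c1 := by
      calc Real.exp (Real.log t - gfun t + 1) ≤ Real.exp (Real.log c1) := Real.exp_le_exp.mpr e1
        _ = c1 := Real.exp_log hc1pos
    have x2 : Real.exp (-gfun t) ≤ c2 := by
      calc Real.exp (-gfun t) ≤ Real.exp (Real.log c2) := Real.exp_le_exp.mpr e2
        _ = c2 := Real.exp_log hc2pos
    have x3 : Real.exp (Real.log t - gfun t + 1) = t * Real.exp 1 * Real.exp (-gfun t) := by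
      rw [show Real.log t - gfun t + 1 = Real.log t + 1 + -gfun t by ring, Real.exp_add,
        Real.exp_add, Real.exp_log hpos]
    have x4 : (Real.exp 1 * t + 1) * Real.exp (-gfun t) ≤ 1 := by
      have : (Real.exp 1 * t + 1) * Real.exp (-gfun t)
          = t * Real.exp 1 * Real.exp (-gfun t) + Real.exp (-gfun t) := by ring
      rw [this, ← x3]
      have : c1 + c2 = 1 := by rw [hc2]; ring
      linarith
    have x5 : Real.exp (-gfun t) * Real.exp (gfun t) = 1 := by
      rw [← Real.exp_add]; simp
    have hE : 0 < Real.exp (gfun t) := Real.exp_pos _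
    calc Real.exp 1 * t + 1 = (Real.exp 1 * t + 1) * Real.exp (-gfun t) * Real.exp (gfun t) := by
          rw [mul_assoc, x5, mul_one]
      _ ≤ 1 * Real.exp (gfun t) := mul_le_mul_of_nonneg_right x4 hE.le
      _ = Real.exp (gfun t) := one_mul _

/-- Geometric-mean bound: `e ^ 2 * t (t + 1) ≤ exp (g t) ^ 2`. -/
theorem exp_gfun_sq_ge {t : ℝ} (ht : 0 < t) :
    Real.exp 1 ^ 2 * (t * (t + 1)) ≤ Real.exp (gfun t) ^ 2 := by
  have ht1 : 0 < t + 1 := by linarith
  have hid : IntervalIntegrable (fun s : ℝ => s) volume 0 1 :=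
    continuous_id.intervalIntegrable 0 1
  have key : ∫ s in (0:ℝ)..1, (Real.log t + (Real.log (t + 1) - Real.log t) * s)
      ≤ ∫ s in (0:ℝ)..1, Real.log (t + s) := by
    apply intervalIntegral.integral_mono_on zero_le_one (integrable_lin hid _ _)
      (integrable_log_shift ht)
    intro s hs
    have hc := strictConcaveOn_log_Ioi.concaveOn.2 (Set.mem_Ioi.mpr ht)
      (Set.mem_Ioi.mpr ht1) (by linarith [hs.2] : (0:ℝ) ≤ 1 - s) hs.1 (by ring)
    simp only [smul_eq_mul] at hc
    have e1 : (1 - s) * t + s * (t + 1) = t + s := by ring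
    rw [e1] at hc
    linarith
  rw [integral_lin hid, integral_log_shift, integral_id] at key
  have h1 : 2 + Real.log t + Real.log (t + 1) ≤ gfun t + gfun t := by
    norm_num at key
    linarith
  calc Real.exp 1 ^ 2 * (t * (t + 1))
      = Real.exp (2 + Real.log t + Real.log (t + 1)) := by
        rw [Real.exp_add, Real.exp_add, Real.exp_log ht, Real.exp_log ht1,
          show (2:ℝ) = 1 + 1 by norm_num, Real.exp_add]
        ring
    _ ≤ Real.exp (gfun t + gfun t) := Real.exp_le_exp.mpr h1
    _ = Real.exp (gfun t) ^ 2 := by rw [Real.exp_add]; ring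

/-- Refined lower bound: `e (t + 1/2 - 1/(8 t)) ≤ exp (g t)`. -/
theorem le_exp_gfun_refined {t : ℝ} (ht : 0 < t) :
    Real.exp 1 * (t + 1 / 2 - 1 / (8 * t)) ≤ Real.exp (gfun t) := by
  have he : 0 < Real.exp 1 := Real.exp_pos 1
  have hE : 0 < Real.exp (gfun t) := Real.exp_pos _
  have hsq := exp_gfun_sq_ge ht
  by_cases hr : t + 1 / 2 - 1 / (8 * t) ≤ 0
  · have : Real.exp 1 * (t + 1 / 2 - 1 / (8 * t)) ≤ 0 :=
      mul_nonpos_of_nonneg_of_nonpos he.le hr
    linarith
  · rw [not_le] at hr
    -- then `t ≥ 1/8`
    have ht8 : 1 / 8 ≤ t := by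
      by_contra hlt
      rw [not_le] at hlt
      have h8 : 1 < 1 / (8 * t) := by
        rw [lt_div_iff₀ (by positivity)]
        linarith
      linarith
    have hr2 : (t + 1 / 2 - 1 / (8 * t)) ^ 2 ≤ t * (t + 1) := by
      have h1 : (t + 1 / 2 - 1 / (8 * t)) ^ 2
          = t * (t + 1) - (8 * t - 1) / (64 * t ^ 2) := by
        field_simp
        ring
      rw [h1]
      have : 0 ≤ (8 * t - 1) / (64 * t ^ 2) := by
        apply div_nonneg
        · linarith
        · positivity
      linarith
    have h2 : (Real.exp 1 * (t + 1 / 2 - 1 / (8 * t))) ^ 2 ≤ Real.exp (gfun t) ^ 2 := by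
      rw [mul_pow]
      calc Real.exp 1 ^ 2 * (t + 1 / 2 - 1 / (8 * t)) ^ 2
          ≤ Real.exp 1 ^ 2 * (t * (t + 1)) :=
            mul_le_mul_of_nonneg_left hr2 (by positivity)
        _ ≤ Real.exp (gfun t) ^ 2 := hsq
    exact le_of_sq_le_sq h2 hE.le

end Vale.Agent.Lib.P369.H28
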